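import Vale.Agent.P358.Defs
import Vale.Agent.P358.HolevoAdd
import Vale.Agent.P358.ADStar

open Vale.Agent.P358

namespace Vale.Agent.Results.P358.AmplitudeDamping

/-- Additivity of the Holevo capacity of the amplitude-damping channel (`ν = 0`), and of its mirror
image (`ν = 1`), for every damping strength: `χ(𝒜^{⊗n}) = n χ(𝒜)` for all `n`, and the classical
capacity equals the Holevo capacity. (The suprema are over nonempty sets bounded above.) -/
theorem result (γ ν : ℝ) (hγ0 : 0 ≤ γ) (hγ1 : γ ≤ 1) (hν : ν = 0 ∨ ν = 1) :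
    (∀ n : ℕ, BddAbove (holevoSet (tensorPow (gadc γ ν) n))) ∧
    (∀ n : ℕ, holevo (tensorPow (gadc γ ν) n) = n * holevo (gadc γ ν)) ∧
    BddAbove {x : ℝ | ∃ n : ℕ, 1 ≤ n ∧ x = holevo (tensorPow (gadc γ ν) n) / n} ∧
    capacity (gadc γ ν) = holevo (gadc γ ν) := by
  have hs : Star (gadc γ ν) := by
    rcases hν with rfl | rfl
    · exact star_gadc_zero γ hγ0 hγ1
    · exact star_gadc_one γ hγ0 hγ1 (star_gadc_zero γ hγ0 hγ1)
  have hν0 : 0 ≤ ν := by rcases hν with rfl | rfl <;> norm_num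
  have hν1 : ν ≤ 1 := by rcases hν with rfl | rfl <;> norm_num
  have hc := diagChan_gadc γ ν hγ0 hγ1 hν0 hν1
  exact ⟨fun n => hc.bddAbove_holevoSet n, hc.additivity hs⟩

end Vale.Agent.Results.P358.AmplitudeDamping
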