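import Vale.Agent.P358.Defs
import Vale.Agent.P358.FDefs
import Vale.Agent.P358.HolevoAdd
import Vale.Agent.P358.GStarAll
import Vale.Agent.P358.GFormD

open Vale.Agent.P358

namespace Vale.Agent.Results.P358.Capacity

/-- The classical capacity of the generalized amplitude-damping channel for all parameters.
The Holevo capacity is additive, `C(𝒜) = χ(𝒜)`, and
`C(𝒜) = max_{0≤q≤1} h₂((1-γ)q+γν) - h₂((1 + √(1 - 4γ((1-γ)(q-ν)² + ν(1-ν))))/2)`. -/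
theorem result (γ ν : ℝ) (hγ0 : 0 ≤ γ) (hγ1 : γ ≤ 1) (hν0 : 0 ≤ ν) (hν1 : ν ≤ 1) :
    (∀ n : ℕ, BddAbove (holevoSet (tensorPow (gadc γ ν) n))) ∧
    (∀ n : ℕ, holevo (tensorPow (gadc γ ν) n) = n * holevo (gadc γ ν)) ∧
    BddAbove {x : ℝ | ∃ n : ℕ, 1 ≤ n ∧ x = holevo (tensorPow (gadc γ ν) n) / n} ∧
    capacity (gadc γ ν) = holevo (gadc γ ν) ∧
    IsGreatest (capFun γ ν '' Set.Icc 0 1) (capacity (gadc γ ν)) := by
  have hs : Star (gadc γ ν) := star_gadc γ ν hγ0 hγ1 hν0 hν1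
  have hc := diagChan_gadc γ ν hγ0 hγ1 hν0 hν1
  obtain ⟨h1, h2, h3⟩ := hc.additivity hs
  refine ⟨fun n => hc.bddAbove_holevoSet n, h1, h2, h3, ?_⟩
  rw [h3]
  exact holevo_formula γ ν hγ0 hγ1 hν0 hν1 hs

end Vale.Agent.Results.P358.Capacity
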